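import Mathlib

/-! Elementary tools for division rings algebraic over their centre. -/

namespace Vale.Agent.Lib.P199

open Polynomial

universe u

section Faithful

variable {F : Type u} {D : Type u} [Field F] [DivisionRing D] [Algebra F D]

/-- If `a i` are independent over the centre and `∑ a i * z * b i = 0` for all `z`,
then all `b i` vanish. -/
theorem coeff_zero_of_sum_mul_mul
    (hcenter : ∀ x : D, (∀ y : D, x * y = y * x) → x ∈ (algebraMap F D).range)
    {ι : Type*} [DecidableEq ι] (a : ι → D) (ha : LinearIndependent F a) (s : Finset ι) :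
    ∀ (b : ι → D), (∀ z : D, ∑ i ∈ s, a i * z * b i = 0) → ∀ i ∈ s, b i = 0 := by
  induction s using Finset.strongInduction with
  | H s IH =>
    intro b hz i0 hi0
    by_contra hb0
    -- the basic relation
    have key : ∀ i ∈ s, ∀ r : D, b i * r * b i0 = b i0 * r * b i := by
      intro i hi r
      by_cases hii : i = i0
      · subst hii; rfl
      have h := IH (s.erase i0) (Finset.erase_ssubset hi0)
        (fun j => b j * r * b i0 - b i0 * r * b j) (by
          intro z
          have h1 : ∑ j ∈ s, a j * z * (b j * r * b i0 - b i0 * r * b j) = 0 := by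
            have e1 : ∀ j, a j * z * (b j * r * b i0 - b i0 * r * b j)
                = (a j * z * b j) * (r * b i0) - a j * (z * b i0 * r) * b j := by
              intro j; noncomm_ring
            simp_rw [e1]
            rw [Finset.sum_sub_distrib, ← Finset.sum_mul, hz z, hz (z * b i0 * r)]
            simp
          rw [← Finset.add_sum_erase s _ hi0] at h1
          simpa using h1) i (Finset.mem_erase.mpr ⟨hii, hi⟩)
      exact sub_eq_zero.mp h
    have hc : ∀ i ∈ s, ∃ f : F, algebraMap F D f = b i * (b i0)⁻¹ := by
      intro i hi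
      have : b i * (b i0)⁻¹ ∈ (algebraMap F D).range := by
        apply hcenter
        intro t
        have h := key i hi ((b i0)⁻¹ * t)
        have h2 : b i * (b i0)⁻¹ * t * b i0 = t * b i := by
          calc b i * (b i0)⁻¹ * t * b i0 = b i * ((b i0)⁻¹ * t) * b i0 := by noncomm_ring
            _ = b i0 * ((b i0)⁻¹ * t) * b i := h
            _ = (b i0 * (b i0)⁻¹) * t * b i := by noncomm_ring
            _ = t * b i := by rw [mul_inv_cancel₀ hb0, one_mul]
        calc b i * (b i0)⁻¹ * t = b i * (b i0)⁻¹ * t * b i0 * (b i0)⁻¹ := by
              rw [mul_assoc (b i * (b i0)⁻¹ * t), mul_inv_cancel₀ hb0, mul_one]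
          _ = t * b i * (b i0)⁻¹ := by rw [h2]
          _ = t * (b i * (b i0)⁻¹) := by noncomm_ring
      simpa using this
    choose! f hf using hc
    have hbi : ∀ i ∈ s, b i = algebraMap F D (f i) * b i0 := by
      intro i hi
      rw [hf i hi, mul_assoc, inv_mul_cancel₀ hb0, mul_one]
    have hsum : (∑ i ∈ s, f i • a i) * b i0 = 0 := by
      have h := hz 1
      rw [Finset.sum_mul]
      rw [← h]
      apply Finset.sum_congr rfl
      intro i hi
      rw [hbi i hi, Algebra.smul_def, (Algebra.commutes (f i) (a i))]
      noncomm_ring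
    have hsum0 : ∑ i ∈ s, f i • a i = 0 := by
      rcases mul_eq_zero.mp hsum with h | h
      · exact h
      · exact absurd h hb0
    have hf0 := (linearIndependent_iff'.mp ha) s f hsum0 i0 hi0
    have : algebraMap F D (f i0) = 1 := by
      rw [hf i0 hi0, mul_inv_cancel₀ hb0]
    rw [hf0, map_zero] at this
    exact zero_ne_one this

/-- Iterated `divX`: coefficients. -/
theorem coeff_iterate_divX (p : F[X]) (i k : ℕ) :
    ((divX^[i]) p).coeff k = p.coeff (k + i) := by
  induction i generalizing k with
  | zero => simp
  | succ i ih =>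
    rw [Function.iterate_succ_apply', coeff_divX, ih]
    congr 1; omega

/-- Wedderburn-Dickson: two elements with the same minimal polynomial over the centre
are conjugate. -/
theorem exists_mul_eq_mul
    (hcenter : ∀ x : D, (∀ y : D, x * y = y * x) → x ∈ (algebraMap F D).range)
    (a b : D) (ha : IsIntegral F a) (hb : aeval b (minpoly F a) = 0) :
    ∃ x : D, x ≠ 0 ∧ a * x = x * b := by
  classical
  set f := minpoly F a with hf
  have hfirr : Irreducible f := minpoly.irreducible ha
  have hfmonic : f.Monic := minpoly.monic ha
  have hmb : minpoly F b = f :=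
    (minpoly.eq_of_irreducible_of_monic hfirr hb hfmonic).symm ▸ rfl
  set n := f.natDegree with hn
  have hnpos : 0 < n := minpoly.natDegree_pos ha
  let d : ℕ → D := fun i => aeval b ((divX^[i]) f)
  have hd : ∀ i, d i = d (i + 1) * b + algebraMap F D (f.coeff i) := by
    intro i
    have h := divX_mul_X_add ((divX^[i]) f)
    have h2 : aeval b ((divX^[i]) f)
        = aeval b (divX ((divX^[i]) f)) * b
          + algebraMap F D (((divX^[i]) f).coeff 0) := by
      conv_lhs => rw [← h]
      simp [map_add, map_mul]
    have h3 : ((divX^[i]) f).coeff 0 = f.coeff i := by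
      rw [coeff_iterate_divX]; simp
    rw [h3] at h2
    change aeval b ((divX^[i]) f) = aeval b ((divX^[i+1]) f) * b + _
    rw [Function.iterate_succ_apply']
    exact h2
  have hdtop : d (n + 1) = 0 := by
    have : (divX^[n + 1]) f = 0 := by
      ext k
      rw [coeff_iterate_divX, coeff_zero]
      apply coeff_eq_zero_of_natDegree_lt
      omega
    change aeval b ((divX^[n + 1]) f) = 0
    rw [this, map_zero]
  have hd0 : d 0 = 0 := by
    change aeval b f = 0
    exact hb
  have htel : ∀ (z : D) (m : ℕ),
      ∑ i ∈ Finset.range m, a ^ (i + 1) * z * d (i + 1)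
        - ∑ i ∈ Finset.range m, a ^ i * z * d (i + 1) * b
      = a ^ m * z * d m - z * d 0
        + ∑ i ∈ Finset.range m, algebraMap F D (f.coeff i) * a ^ i * z := by
    intro z m
    induction m with
    | zero => simp
    | succ m ih =>
      rw [Finset.sum_range_succ, Finset.sum_range_succ, Finset.sum_range_succ]
      have e : a ^ m * z * d (m + 1) * b
          = a ^ m * z * d m - algebraMap F D (f.coeff m) * a ^ m * z := by
        have hc : algebraMap F D (f.coeff m) * a ^ m * z
            = a ^ m * z * algebraMap F D (f.coeff m) := by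
          rw [mul_assoc, Algebra.commutes]
        rw [hc, hd m, mul_add, add_sub_cancel_right, mul_assoc (a ^ m * z)]
      rw [e, pow_succ' a m]
      refine sub_eq_zero.mp ?_
      refine Eq.trans ?_ (sub_eq_zero.mpr ih)
      abel
  -- the element y(z)
  let y : D → D := fun z => ∑ i ∈ Finset.range (n + 1), a ^ i * z * d (i + 1)
  have hy : ∀ z, a * y z = y z * b := by
    intro z
    have h := htel z (n + 1)
    rw [hdtop, hd0] at h
    have hsum : ∑ i ∈ Finset.range (n + 1), algebraMap F D (f.coeff i) * a ^ i * z = 0 := by
      have h1 : aeval a f = 0 := minpoly.aeval F a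
      rw [aeval_eq_sum_range] at h1
      rw [← Finset.sum_mul]
      have : ∑ i ∈ Finset.range (n + 1), algebraMap F D (f.coeff i) * a ^ i = 0 := by
        rw [← h1]
        apply Finset.sum_congr rfl
        intro i _
        rw [Algebra.smul_def]
      rw [this, zero_mul]
    rw [hsum] at h
    simp only [mul_zero, add_zero, sub_self] at h
    have h2 : a * y z = ∑ i ∈ Finset.range (n + 1), a ^ (i + 1) * z * d (i + 1) := by
      change a * ∑ i ∈ Finset.range (n + 1), a ^ i * z * d (i + 1) = _
      rw [Finset.mul_sum]
      apply Finset.sum_congr rfl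
      intro i _
      rw [pow_succ']; noncomm_ring
    have h3 : y z * b = ∑ i ∈ Finset.range (n + 1), a ^ i * z * d (i + 1) * b := by
      change (∑ i ∈ Finset.range (n + 1), a ^ i * z * d (i + 1)) * b = _
      rw [Finset.sum_mul]
    rw [h2, h3]
    exact sub_eq_zero.mp h
  -- nonvanishing
  have hex : ∃ z, y z ≠ 0 := by
    by_contra hcon
    push Not at hcon
    have hz : ∀ z : D, ∑ i : Fin n, a ^ (i : ℕ) * z * d ((i : ℕ) + 1) = 0 := by
      intro z
      have h := hcon z
      change ∑ i ∈ Finset.range (n + 1), a ^ i * z * d (i + 1) = 0 at h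
      rw [Finset.sum_range_succ, hdtop, mul_zero, add_zero] at h
      rw [Fin.sum_univ_eq_sum_range (fun i => a ^ i * z * d (i + 1)) n]
      exact h
    have hli : LinearIndependent F (fun i : Fin n => a ^ (i : ℕ)) := by
      have := linearIndependent_pow (K := F) a
      exact this
    have h0 := coeff_zero_of_sum_mul_mul hcenter (fun i : Fin n => a ^ (i : ℕ)) hli Finset.univ
      (fun i : Fin n => d ((i : ℕ) + 1)) (by simpa using hz) ⟨0, hnpos⟩ (Finset.mem_univ _)
    -- `divX f` is a nonzero polynomial of degree smaller than `n` vanishing at `b`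
    have h1 : aeval b (divX f) = 0 := by simpa [d] using h0
    have hbint : IsIntegral F b := ⟨f, hfmonic, by
      rw [← aeval_def]; exact hb⟩
    have hdvd : minpoly F b ∣ divX f := minpoly.dvd F b h1
    rw [hmb] at hdvd
    have hne : divX f ≠ 0 := by
      intro h0'
      rw [divX_eq_zero_iff] at h0'
      have : f.natDegree = 0 := by rw [h0']; simp
      omega
    have hle := natDegree_le_of_dvd hdvd hne
    have hlt : (divX f).natDegree = n - 1 := natDegree_divX_eq_natDegree_tsub_one
    omega
  obtain ⟨z, hzne⟩ := hex
  exact ⟨y z, hzne, hy z⟩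

end Faithful

end Vale.Agent.Lib.P199
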