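import Vale.Agent.Lib.P199.Basic

namespace Vale.Agent.Lib.P199

open Polynomial

universe u

variable {F : Type u} {D : Type u} [Field F] [DivisionRing D] [Algebra F D]

/-- A finite commuting subset of an algebraic division algebra generates a finite-dimensional
subfield, packaged abstractly. -/
theorem exists_field_of_commuting (halg : Algebra.IsAlgebraic F D) (S : Set D) (hS : S.Finite)
    (hcomm : ∀ a ∈ S, ∀ b ∈ S, a * b = b * a) :
    ∃ (E : Type u) (_ : Field E) (_ : Algebra F E) (_ : FiniteDimensional F E) (ι : E →ₐ[F] D),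
      ι.range = Algebra.adjoin F S := by
  classical
  let A := Algebra.adjoin F S
  letI instCR : CommRing A := Algebra.adjoinCommRingOfComm F hcomm
  have hint : Algebra.IsIntegral F A := by
    constructor
    intro x
    have hx : IsIntegral F (x : D) := (halg.isAlgebraic (x : D)).isIntegral
    exact (isIntegral_algHom_iff A.val Subtype.val_injective).mp hx
  haveI hdom : IsDomain A := by
    have : NoZeroDivisors A := Subtype.val_injective.noZeroDivisors _ rfl (fun _ _ => rfl)
    exact NoZeroDivisors.to_isDomain A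
  have hfield : IsField A := isField_of_isIntegral_of_isField' (R := F) (Field.toIsField F)
  letI instF : Field A := hfield.toField
  have hfin : Module.Finite F A := by
    -- `A` is generated by finitely many integral elements
    have hgen : Algebra.adjoin F (((↑) : A → D) ⁻¹' S) = (⊤ : Subalgebra F A) :=
      Algebra.adjoin_adjoin_coe_preimage
    have hfinS : (((↑) : A → D) ⁻¹' S).Finite :=
      hS.preimage Subtype.val_injective.injOn
    have hfg := fg_adjoin_of_finite (R := F) hfinS (fun x _ => hint.isIntegral x)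
    rw [hgen] at hfg
    exact ⟨by simpa using hfg⟩
  refine ⟨A, instF, inferInstance, hfin, A.val, ?_⟩
  exact Subalgebra.range_val A

/-- Conjugation by a nonzero element, as an algebra endomorphism. -/
noncomputable def conjHom (F : Type u) {D : Type u} [Field F] [DivisionRing D] [Algebra F D]
    (w : D) (hw : w ≠ 0) : D →ₐ[F] D where
  toFun x := w * x * w⁻¹
  map_one' := by simp [hw]
  map_mul' x y := by
    calc w * (x * y) * w⁻¹ = w * x * (w⁻¹ * w) * y * w⁻¹ := by
          rw [inv_mul_cancel₀ hw]; noncomm_ring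
      _ = w * x * w⁻¹ * (w * y * w⁻¹) := by noncomm_ring
  map_zero' := by simp
  map_add' x y := by noncomm_ring
  commutes' r := by
    rw [← Algebra.commutes, mul_assoc, mul_inv_cancel₀ hw, mul_one]

theorem conjHom_apply (w : D) (hw : w ≠ 0) (x : D) : conjHom F w hw x = w * x * w⁻¹ := rfl

/-- Two algebra homomorphisms out of a field generated by one element agree if they agree on it. -/
theorem algHom_ext_of_range_adjoin {E : Type u} [Field E] [Algebra F E]
    {D' : Type u} [Ring D'] [Algebra F D']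
    (ι : E →ₐ[F] D) (a : D) (hι : ι.range = Algebra.adjoin F {a}) (α : E) (hα : ι α = a)
    (g₁ g₂ : E →ₐ[F] D') (h : g₁ α = g₂ α) (e : E) : g₁ e = g₂ e := by
  have hmem : ι e ∈ Algebra.adjoin F ({a} : Set D) := by
    rw [← hι]; exact ⟨e, rfl⟩
  rw [Algebra.adjoin_singleton_eq_range_aeval] at hmem
  obtain ⟨p, hp⟩ := hmem
  have hinj : Function.Injective ι := ι.toRingHom.injective
  have he : e = aeval α p := by
    apply hinj
    have : ι (aeval α p) = aeval (ι α) p := (aeval_algHom_apply ι α p).symm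
    rw [this, hα]
    exact hp.symm
  rw [he, ← aeval_algHom_apply, ← aeval_algHom_apply, h]

/-- From conjugation acting on a field inside `D` get a field automorphism. -/
theorem exists_algEquiv_of_conj {E : Type u} [Field E] [Algebra F E] [FiniteDimensional F E]
    (ι : E →ₐ[F] D) (w : D) (hw : w ≠ 0)
    (hrange : ∀ e : E, w * ι e * w⁻¹ ∈ ι.range) :
    ∃ σ : E ≃ₐ[F] E, ∀ e : E, ι (σ e) = w * ι e * w⁻¹ := by
  have hinj : Function.Injective ι := ι.toRingHom.injective
  let φ : E →ₐ[F] ι.range := (conjHom F w hw).comp ι |>.codRestrict ι.range (fun e => hrange e)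
  let σ₀ : E →ₐ[F] E := ((AlgEquiv.ofInjective ι hinj).symm : ι.range →ₐ[F] E).comp φ
  have hσ₀ : ∀ e, ι (σ₀ e) = w * ι e * w⁻¹ := by
    intro e
    have h := (AlgEquiv.ofInjective ι hinj).apply_symm_apply (φ e)
    have h2 : ι ((AlgEquiv.ofInjective ι hinj).symm (φ e)) = ((φ e : ι.range) : D) :=
      congrArg (Subtype.val) h
    exact h2
  have hbij : Function.Bijective σ₀ := Algebra.IsAlgebraic.algHom_bijective σ₀
  refine ⟨AlgEquiv.ofBijective σ₀ hbij, ?_⟩
  intro e
  exact hσ₀ e

/-- The main theorem: if every nontrivial finite extension of the centre `F` has a nontrivial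
automorphism and all norms of cyclic extensions of prime degree (of finite extensions of `F`) are
surjective, then a division ring algebraic over `F` is commutative. -/
theorem commutative_of_aut_of_norm
    (hAut : ∀ (K : Type u) [Field K] [Algebra F K] [FiniteDimensional F K],
      (∃ x : K, x ∉ (algebraMap F K).range) → ∃ σ : K ≃ₐ[F] K, σ ≠ 1)
    (hNorm : ∀ (E : Type u) [Field E] [Algebra F E] [FiniteDimensional F E] (σ : E ≃ₐ[F] E)
      (l : ℕ), l.Prime → σ ^ l = 1 → σ ≠ 1 → ∀ y : E, y ≠ 0 → σ y = y →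
      ∃ c : E, ∏ i ∈ Finset.range l, (σ ^ i) c = y)
    (hcenter : ∀ x : D, (∀ y : D, x * y = y * x) → x ∈ (algebraMap F D).range)
    (halg : Algebra.IsAlgebraic F D) :
    ∀ x y : D, x * y = y * x := by
  classical
  by_contra hnc
  push Not at hnc
  obtain ⟨a, t, hat⟩ := hnc
  have ha_nc : a ∉ (algebraMap F D).range := by
    rintro ⟨f, rfl⟩
    exact hat (Algebra.commutes f t)
  have hint : ∀ x : D, IsIntegral F x := fun x => (halg.isAlgebraic x).isIntegral
  -- the field `K = F(a)`
  obtain ⟨K, _, _, _, ι₀, hι₀⟩ := exists_field_of_commuting halg {a} (Set.finite_singleton a)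
    (by rintro x rfl y rfl; rfl)
  have hι₀inj : Function.Injective ι₀ := ι₀.toRingHom.injective
  obtain ⟨α, hα⟩ : ∃ α : K, ι₀ α = a := by
    have : a ∈ ι₀.range := by rw [hι₀]; exact Algebra.self_mem_adjoin_singleton F a
    exact this
  have hαnot : α ∉ (algebraMap F K).range := by
    rintro ⟨f, hf⟩
    apply ha_nc
    refine ⟨f, ?_⟩
    rw [← hα, ← hf, AlgHom.commutes]
  obtain ⟨σ, hσ⟩ := hAut K ⟨α, hαnot⟩
  -- an automorphism of prime order
  obtain ⟨τ, l, hl, hτl, hτ1⟩ : ∃ (τ : K ≃ₐ[F] K) (l : ℕ), l.Prime ∧ τ ^ l = 1 ∧ τ ≠ 1 := by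
    have hfin : Finite (K ≃ₐ[F] K) := inferInstance
    have hpos : 0 < orderOf σ := orderOf_pos σ
    have hne1 : orderOf σ ≠ 1 := by
      intro h; exact hσ (orderOf_eq_one_iff.mp h)
    obtain ⟨l, hl, hdvd⟩ := Nat.exists_prime_and_dvd hne1
    refine ⟨σ ^ (orderOf σ / l), l, hl, ?_, ?_⟩
    · rw [← pow_mul, Nat.div_mul_cancel hdvd, pow_orderOf_eq_one]
    · intro h
      have h2 := orderOf_dvd_of_pow_eq_one h
      have h3 : orderOf σ / l < orderOf σ := Nat.div_lt_self hpos hl.one_lt
      have h4 : 0 < orderOf σ / l := Nat.div_pos (Nat.le_of_dvd hpos hdvd) hl.pos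
      exact absurd (Nat.le_of_dvd h4 h2) (by omega)
  have hτα : τ α ≠ α := by
    intro h
    apply hτ1
    ext e
    have := algHom_ext_of_range_adjoin (F := F) ι₀ a hι₀ α hα
      (τ : K →ₐ[F] K) (AlgHom.id F K) h e
    simpa using this
  set b : D := ι₀ (τ α) with hb
  have hab : b ≠ a := by
    rw [hb, ← hα]
    exact fun h => hτα (hι₀inj h)
  -- Dickson
  have hmin : aeval b (minpoly F a) = 0 := by
    have h1 : minpoly F a = minpoly F α := by
      rw [← hα]; exact minpoly.algHom_eq ι₀ hι₀inj α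
    have h2 : minpoly F (τ α) = minpoly F α := minpoly.algEquiv_eq τ α
    rw [h1, hb, aeval_algHom_apply, ← h2, minpoly.aeval, map_zero]
  obtain ⟨x, hx0, hx⟩ := exists_mul_eq_mul hcenter a b (hint a) hmin
  set w : D := x⁻¹ with hw
  have hw0 : w ≠ 0 := inv_ne_zero hx0
  have hwa : w * a * w⁻¹ = b := by
    rw [hw, inv_inv, mul_assoc, hx, ← mul_assoc, inv_mul_cancel₀ hx0, one_mul]
  -- conjugation acts on `K` by `τ`
  have hconjK : ∀ k : K, w * ι₀ k * w⁻¹ = ι₀ (τ k) := by
    intro k
    have := algHom_ext_of_range_adjoin (F := F) ι₀ a hι₀ α hα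
      ((conjHom F w hw0).comp ι₀) (ι₀.comp (τ : K →ₐ[F] K))
      (by
        change w * ι₀ α * w⁻¹ = ι₀ (τ α)
        rw [hα, hwa]) k
    simpa [conjHom_apply] using this
  have hconjKpow : ∀ (i : ℕ) (k : K), w ^ i * ι₀ k * (w ^ i)⁻¹ = ι₀ ((τ ^ i) k) := by
    intro i
    induction i with
    | zero => intro k; simp
    | succ i ih =>
      intro k
      have h1 : w ^ (i + 1) * ι₀ k * (w ^ (i + 1))⁻¹
          = w ^ i * (w * ι₀ k * w⁻¹) * (w ^ i)⁻¹ := by
        rw [pow_succ, mul_inv_rev]; noncomm_ring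
      rw [h1, hconjK, ih, pow_succ]
      rfl
  set y : D := w ^ l with hy
  have hy0 : y ≠ 0 := pow_ne_zero _ hw0
  have hyK : ∀ k : K, y * ι₀ k = ι₀ k * y := by
    intro k
    have h := hconjKpow l k
    rw [hτl] at h
    have h2 : y * ι₀ k * y⁻¹ = ι₀ k := by simpa using h
    calc y * ι₀ k = y * ι₀ k * y⁻¹ * y := by
          rw [mul_assoc (y * ι₀ k), inv_mul_cancel₀ hy0, mul_one]
      _ = ι₀ k * y := by rw [h2]
  have hya : a * y = y * a := by
    have := hyK α
    rw [hα] at this
    exact this.symm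
  -- the field `E = F(a, y)`
  obtain ⟨E, _, _, _, ι, hι⟩ := exists_field_of_commuting halg {a, y}
    ((Set.finite_singleton y).insert a)
    (by
      intro u hu v hv
      rcases hu with rfl | hu
      · rcases hv with rfl | hv
        · rfl
        · rw [Set.mem_singleton_iff.mp hv]; exact hya
      · rw [Set.mem_singleton_iff.mp hu]
        rcases hv with rfl | hv
        · exact hya.symm
        · rw [Set.mem_singleton_iff.mp hv])
  have hιinj : Function.Injective ι := ι.toRingHom.injective
  obtain ⟨a', ha'⟩ : ∃ a' : E, ι a' = a := by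
    have : a ∈ ι.range := by
      rw [hι]; exact Algebra.subset_adjoin (Set.mem_insert _ _)
    exact this
  obtain ⟨y', hy'⟩ : ∃ y' : E, ι y' = y := by
    have : y ∈ ι.range := by
      rw [hι]; exact Algebra.subset_adjoin (Set.mem_insert_of_mem _ rfl)
    exact this
  have hy'0 : y' ≠ 0 := by
    rintro rfl
    exact hy0 (by rw [← hy', map_zero])
  -- conjugation by `w` preserves `E`
  have hbmem : b ∈ ι.range := by
    have h1 : b ∈ Algebra.adjoin F ({a} : Set D) := by
      rw [← hι₀]; exact ⟨τ α, rfl⟩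
    have h2 : Algebra.adjoin F ({a} : Set D) ≤ Algebra.adjoin F ({a, y} : Set D) :=
      Algebra.adjoin_mono (by
        intro u hu; rw [Set.mem_singleton_iff.mp hu]; exact Set.mem_insert _ _)
    rw [hι]; exact h2 h1
  have hwy : w * y * w⁻¹ = y := by
    rw [hy, ← pow_succ', pow_succ, mul_assoc, mul_inv_cancel₀ hw0, mul_one]
  have hrange : ∀ e : E, w * ι e * w⁻¹ ∈ ι.range := by
    intro e
    have hmem : ι e ∈ Algebra.adjoin F ({a, y} : Set D) := by rw [← hι]; exact ⟨e, rfl⟩
    have hmap : (Algebra.adjoin F ({a, y} : Set D)).map (conjHom F w hw0) ≤ ι.range := by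
      rw [AlgHom.map_adjoin, Algebra.adjoin_le_iff]
      rintro _ ⟨u, hu, rfl⟩
      rcases hu with hu | hu
      · rw [hu]
        change w * a * w⁻¹ ∈ ι.range
        rw [hwa]; exact hbmem
      · rw [Set.mem_singleton_iff.mp hu]
        change w * y * w⁻¹ ∈ ι.range
        rw [hwy]; exact ⟨y', hy'⟩
    exact hmap ⟨ι e, hmem, rfl⟩
  obtain ⟨s, hs⟩ := exists_algEquiv_of_conj ι w hw0 hrange
  -- commutation rule
  have hws : ∀ e : E, w * ι e = ι (s e) * w := by
    intro e
    rw [hs, mul_assoc (w * ι e), inv_mul_cancel₀ hw0, mul_one]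
  have hspow : ∀ (i : ℕ) (e : E), w ^ i * ι e = ι ((s ^ i) e) * w ^ i := by
    intro i
    induction i with
    | zero => intro e; simp
    | succ i ih =>
      intro e
      rw [pow_succ' w i, mul_assoc, ih, ← mul_assoc, hws, mul_assoc, pow_succ' s i]
      rfl
  have hs1 : s ≠ 1 := by
    intro h
    have h1 := hs a'
    rw [h, ha', hwa] at h1
    change ι a' = b at h1
    rw [ha'] at h1
    exact hab h1.symm
  have hsl : s ^ l = 1 := by
    ext e
    apply hιinj
    have h1 := hspow l e
    have h2 : y * ι e = ι e * y := by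
      rw [← hy', ← map_mul, ← map_mul, mul_comm]
    rw [← hy, h2] at h1
    have h3 := mul_right_cancel₀ hy0 h1
    simpa using h3.symm
  have hsy : s y' = y' := by
    apply hιinj
    rw [hs, hy', hwy]
  -- the norm hypothesis
  obtain ⟨c, hc⟩ := hNorm E s l hl hsl hs1 y' hy'0 hsy
  have hc0 : c ≠ 0 := by
    rintro rfl
    apply hy'0
    rw [← hc]
    apply Finset.prod_eq_zero (Finset.mem_range.mpr hl.pos)
    exact map_zero _
  set z : D := (ι c)⁻¹ * w with hz
  have hιc0 : ι c ≠ 0 := by
    intro h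
    exact hc0 (hιinj (by rw [h, map_zero]))
  have hιinv : (ι c)⁻¹ = ι c⁻¹ := by rw [map_inv₀]
  have hzact : ∀ e : E, z * ι e = ι (s e) * z := by
    intro e
    rw [hz, mul_assoc, hws, ← mul_assoc, ← mul_assoc, hιinv, ← map_mul, ← map_mul, mul_comm]
  have hzpowact : ∀ (i : ℕ) (e : E), z ^ i * ι e = ι ((s ^ i) e) * z ^ i := by
    intro i
    induction i with
    | zero => intro e; simp
    | succ i ih =>
      intro e
      rw [pow_succ' z i, mul_assoc, ih, ← mul_assoc, hzact, mul_assoc, pow_succ' s i]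
      rfl
  have hzpow : ∀ k : ℕ, z ^ k = (ι (∏ i ∈ Finset.range k, (s ^ i) c))⁻¹ * w ^ k := by
    intro k
    induction k with
    | zero => simp
    | succ k ih =>
      have hprod : (∏ i ∈ Finset.range (k + 1), (s ^ i) c)
          = (∏ i ∈ Finset.range k, (s ^ i) c) * (s ^ k) c := Finset.prod_range_succ _ _
      have hne : ι ((s ^ k) c) ≠ 0 := by
        intro h
        apply hc0
        apply hιinj
        have h0 : (s ^ k) c = 0 := hιinj (by rw [h, map_zero])
        rw [map_zero]
        have := (EmbeddingLike.map_eq_zero_iff (f := (s ^ k))).mp h0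
        rw [this, map_zero]
      calc z ^ (k + 1) = z ^ k * z := pow_succ z k
        _ = (ι (∏ i ∈ Finset.range k, (s ^ i) c))⁻¹ * (w ^ k * ι c⁻¹) * w := by
            rw [ih, hz, hιinv]; noncomm_ring
        _ = (ι (∏ i ∈ Finset.range k, (s ^ i) c))⁻¹ * (ι ((s ^ k) c⁻¹) * w ^ k) * w := by
            rw [hspow]
        _ = (ι ((∏ i ∈ Finset.range k, (s ^ i) c) * (s ^ k) c))⁻¹ * w ^ (k + 1) := by
            have hcomm : (ι (∏ i ∈ Finset.range k, (s ^ i) c))⁻¹ * (ι ((s ^ k) c))⁻¹
                = (ι ((s ^ k) c))⁻¹ * (ι (∏ i ∈ Finset.range k, (s ^ i) c))⁻¹ := by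
              rw [← map_inv₀, ← map_inv₀, ← map_mul, mul_comm, map_mul]
            rw [map_inv₀, map_inv₀, map_mul, mul_inv_rev, pow_succ, ← hcomm]
            noncomm_ring
        _ = _ := by rw [hprod]
  have hzl : z ^ l = 1 := by
    rw [hzpow l, hc, hy', ← hy, inv_mul_cancel₀ hy0]
  have hz1 : z ≠ 1 := by
    intro h
    apply hs1
    ext e
    apply hιinj
    have := hzact e
    rw [h, one_mul, mul_one] at this
    exact this.symm
  have hsum0 : ∑ i ∈ Finset.range l, z ^ i = 0 := by
    have h := geom_sum_mul z l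
    rw [hzl, sub_self] at h
    rcases mul_eq_zero.mp h with h | h
    · exact h
    · exact absurd (sub_eq_zero.mp h) hz1
  have hrel : ∀ e : E, ∑ i ∈ Finset.range l, ι ((s ^ i) e) * z ^ i = 0 := by
    intro e
    have h : (∑ i ∈ Finset.range l, z ^ i) * ι e = 0 := by rw [hsum0, zero_mul]
    rw [Finset.sum_mul] at h
    rw [← h]
    apply Finset.sum_congr rfl
    intro i _
    rw [hzpowact]
  -- Dedekind independence
  letI modED : Module E D := Module.compHom D ι.toRingHom
  have hsmul : ∀ (e : E) (v : D), e • v = ι e * v := fun _ _ => rfl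
  have h1ne : (1 : D) ≠ 0 := one_ne_zero
  obtain ⟨φ, hφ⟩ : ∃ φ : Module.Dual E D, φ 1 ≠ 0 := by
    by_contra hcon
    push Not at hcon
    exact h1ne ((Module.forall_dual_apply_eq_zero_iff E (1 : D)).mp hcon)
  haveI hfact : Fact l.Prime := ⟨hl⟩
  have hord : orderOf s = l := orderOf_eq_prime hsl hs1
  let g : Fin l → (E →* E) := fun i => ((s ^ (i : ℕ) : E ≃ₐ[F] E) : E →* E)
  have hg : Function.Injective g := by
    intro i j hij
    have h : s ^ (i : ℕ) = s ^ (j : ℕ) := by
      ext e
      exact DFunLike.congr_fun hij e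
    have hi : (i : ℕ) < orderOf s := by rw [hord]; exact i.2
    have hj : (j : ℕ) < orderOf s := by rw [hord]; exact j.2
    exact Fin.ext (pow_injOn_Iio_orderOf hi hj h)
  have hli := (linearIndependent_monoidHom E E).comp g hg
  have hzero := (Fintype.linearIndependent_iff.mp hli) (fun i : Fin l => φ (z ^ (i : ℕ))) (by
    funext e
    have h0 := congrArg φ (hrel e)
    rw [map_zero, map_sum] at h0
    rw [Finset.sum_range (fun i => φ (ι ((s ^ i) e) * z ^ i))] at h0
    simp only [Finset.sum_apply, Pi.smul_apply, Function.comp, Pi.zero_apply, smul_eq_mul]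
    rw [← h0]
    apply Finset.sum_congr rfl
    intro i _
    have : φ (ι ((s ^ (i : ℕ)) e) * z ^ (i : ℕ)) = ((s ^ (i : ℕ)) e) * φ (z ^ (i : ℕ)) := by
      rw [← hsmul, map_smul, smul_eq_mul]
    rw [this, mul_comm]
    rfl)
  have h00 := hzero ⟨0, hl.pos⟩
  simp only [pow_zero] at h00
  exact hφ h00

end Vale.Agent.Lib.P199
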