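import Mathlib

namespace Vale.Agent.Lib.P199

universe u

/-- The class of elementary amenable groups: the smallest class of groups containing all finite
groups and all abelian groups and closed under group extensions and directed unions. -/
inductive ElemAmenable : (G : Type u) → [Group G] → Prop
  | of_finite (G : Type u) [Group G] [Finite G] : ElemAmenable G
  | of_comm (G : Type u) [Group G] (h : ∀ a b : G, a * b = b * a) : ElemAmenable G
  | of_extension (G : Type u) [Group G] (N : Subgroup G) [N.Normal] :
      ElemAmenable N → ElemAmenable (G ⧸ N) → ElemAmenable G
  | of_directedUnion (G : Type u) [Group G] (K : Set (Subgroup G)) (hne : K.Nonempty)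
      (hdir : DirectedOn (· ≤ ·) K) (htop : sSup K = ⊤) :
      (∀ H : K, ElemAmenable H.1) → ElemAmenable G

end Vale.Agent.Lib.P199
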