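import Mathlib

/-! Transfer of local finiteness along a finite right span. -/

namespace Vale.Agent.Lib.P199

universe u

section Transfer

variable {F : Type u} {R : Type u} [Field F] [Ring R] [Algebra F R]

theorem mul_mono_left_aux (K : Submodule F R) {E₁ E₂ : Subalgebra F R} (h : E₁ ≤ E₂) {y : R}
    (hy : y ∈ E₁.toSubmodule * K) : y ∈ E₂.toSubmodule * K := by
  have hle : E₁.toSubmodule * K ≤ E₂.toSubmodule * K :=
    Submodule.mul_le.mpr fun e he k hk => Submodule.mul_mem_mul (h he) hk
  exact hle hy

/-- An element of `E * K` already lies in `E₀ * K` for a finitely generated subalgebra `E₀ ≤ E`. -/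
theorem exists_finset_of_mem_mul (E : Subalgebra F R) (K : Submodule F R) {y : R}
    (hy : y ∈ E.toSubmodule * K) :
    ∃ U : Finset R, (U : Set R) ⊆ (E : Set R) ∧
      y ∈ (Algebra.adjoin F (U : Set R)).toSubmodule * K := by
  classical
  induction hy using Submodule.mul_induction_on' with
  | mem_mul_mem e he k hk =>
    refine ⟨{e}, by simpa using he, ?_⟩
    exact Submodule.mul_mem_mul (Algebra.subset_adjoin (by simp)) hk
  | add x _ y _ ihx ihy =>
    obtain ⟨U, hU, hx⟩ := ihx
    obtain ⟨V, hV, hy⟩ := ihy
    refine ⟨U ∪ V, ?_, ?_⟩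
    · rw [Finset.coe_union]; exact Set.union_subset hU hV
    · refine Submodule.add_mem _ ?_ ?_
      · exact mul_mono_left_aux K (Algebra.adjoin_mono (by simp)) hx
      · exact mul_mono_left_aux K (Algebra.adjoin_mono (by simp)) hy

/-- Transfer lemma: if `E` is locally finite, `K` is a finite-dimensional subspace, `1 ∈ E * K` and
`K * t ⊆ E * K` for all `t ∈ T`, then `T` generates a finite-dimensional subalgebra. -/
theorem finite_adjoin_of_mul_le (E : Subalgebra F R)
    (hE : ∀ U : Finset R, (U : Set R) ⊆ (E : Set R) →
      Module.Finite F (Algebra.adjoin F (U : Set R)))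
    (K : Submodule F R) (hK : K.FG) (h1 : (1 : R) ∈ E.toSubmodule * K) (T : Finset R)
    (hT : ∀ t ∈ T, ∀ k ∈ K, k * t ∈ E.toSubmodule * K) :
    Module.Finite F (Algebra.adjoin F (T : Set R)) := by
  classical
  obtain ⟨X, hX⟩ := hK
  -- choose a finite set of coefficients
  have hex : ∃ U : Finset R, (U : Set R) ⊆ (E : Set R) ∧
      (1 : R) ∈ (Algebra.adjoin F (U : Set R)).toSubmodule * K ∧
      ∀ t ∈ T, ∀ x ∈ X, x * t ∈ (Algebra.adjoin F (U : Set R)).toSubmodule * K := by
    obtain ⟨U₀, hU₀, h10⟩ := exists_finset_of_mem_mul E K h1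
    have h2 : ∀ p ∈ T ×ˢ X, ∃ U : Finset R, (U : Set R) ⊆ (E : Set R) ∧
        p.2 * p.1 ∈ (Algebra.adjoin F (U : Set R)).toSubmodule * K := by
      intro p hp
      rw [Finset.mem_product] at hp
      have hk : p.2 ∈ K := by rw [← hX]; exact Submodule.subset_span hp.2
      exact exists_finset_of_mem_mul E K (hT p.1 hp.1 p.2 hk)
    choose! U hU hUmem using h2
    refine ⟨U₀ ∪ (T ×ˢ X).biUnion U, ?_, ?_, ?_⟩
    · rw [Finset.coe_union, Finset.coe_biUnion]
      apply Set.union_subset hU₀
      exact Set.iUnion₂_subset fun p hp => hU p hp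
    · exact mul_mono_left_aux K (Algebra.adjoin_mono (by simp)) h10
    · intro t ht x hx
      have hp : (t, x) ∈ T ×ˢ X := Finset.mem_product.mpr ⟨ht, hx⟩
      refine mul_mono_left_aux K (Algebra.adjoin_mono ?_) (hUmem _ hp)
      intro z hz
      simp only [Finset.coe_union, Finset.coe_biUnion, Set.mem_union, Set.mem_iUnion]
      exact Or.inr ⟨_, hp, hz⟩
  obtain ⟨U, hU, h1U, hTU⟩ := hex
  set E₀ := Algebra.adjoin F (U : Set R) with hE₀
  haveI hfin : Module.Finite F E₀ := hE U hU
  set W : Submodule F R := E₀.toSubmodule * K with hW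
  have hWfg : W.FG := by
    apply Submodule.FG.mul
    · exact (Module.Finite.iff_fg.mp hfin)
    · exact ⟨X, hX⟩
  -- left multiplication by `E₀` preserves `W`
  have hleft : ∀ e ∈ E₀, ∀ w ∈ W, e * w ∈ W := by
    intro e he w hw
    induction hw using Submodule.mul_induction_on' with
    | mem_mul_mem e' he' k hk =>
      rw [← mul_assoc]
      exact Submodule.mul_mem_mul (E₀.mul_mem he he') hk
    | add x _ y _ ihx ihy =>
      rw [mul_add]; exact Submodule.add_mem _ ihx ihy
  -- right multiplication by `T` preserves `W`
  have hright : ∀ t ∈ T, ∀ w ∈ W, w * t ∈ W := by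
    intro t ht w hw
    induction hw using Submodule.mul_induction_on' with
    | mem_mul_mem e he k hk =>
      rw [mul_assoc]
      apply hleft e he
      rw [← hX] at hk
      induction hk using Submodule.span_induction with
      | mem x hx => exact hTU t ht x hx
      | zero => simp
      | add x y _ _ ihx ihy => rw [add_mul]; exact Submodule.add_mem _ ihx ihy
      | smul r x _ ihx => rw [smul_mul_assoc]; exact Submodule.smul_mem _ r ihx
    | add x _ y _ ihx ihy =>
      rw [add_mul]; exact Submodule.add_mem _ ihx ihy
  have hall : ∀ x ∈ Algebra.adjoin F (T : Set R), ∀ w ∈ W, w * x ∈ W := by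
    intro x hx
    induction hx using Algebra.adjoin_induction with
    | mem t ht => exact hright t ht
    | algebraMap r =>
      intro w hw
      rw [← Algebra.commutes, ← Algebra.smul_def]
      exact Submodule.smul_mem _ r hw
    | add x y _ _ ihx ihy =>
      intro w hw; rw [mul_add]; exact Submodule.add_mem _ (ihx w hw) (ihy w hw)
    | mul x y _ _ ihx ihy =>
      intro w hw; rw [← mul_assoc]; exact ihy _ (ihx w hw)
  have hle : (Algebra.adjoin F (T : Set R)).toSubmodule ≤ W := by
    intro x hx
    have := hall x hx 1 h1U
    rwa [one_mul] at this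
  have hWfin : Module.Finite F W := Module.Finite.iff_fg.mpr hWfg
  exact Submodule.finiteDimensional_of_le hle

end Transfer

section Centralizer

variable {F : Type u} {D : Type u} [Field F] [DivisionRing D] [Algebra F D]

/-- Linear algebra over a division ring: more unknowns than equations. -/
theorem exists_ne_zero_forall_sum_mul_eq_zero {ι κ : Type*} [Fintype ι] [Fintype κ]
    (hcard : Fintype.card κ < Fintype.card ι) (m : κ → ι → D) :
    ∃ c : ι → D, c ≠ 0 ∧ ∀ j, ∑ i, c i * m j i = 0 := by
  classical
  let Φ : (ι → D) →ₗ[D] (κ → D) :=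
    LinearMap.pi fun j => ∑ i, (LinearMap.toSpanSingleton D D (m j i)).comp (LinearMap.proj i)
  have hlt : Module.finrank D (κ → D) < Module.finrank D (ι → D) := by
    simpa using hcard
  have hker := LinearMap.ker_ne_bot_of_finrank_lt (f := Φ) hlt
  obtain ⟨c, hc, hc0⟩ := (Submodule.ne_bot_iff _).mp hker
  refine ⟨c, hc0, fun j => ?_⟩
  have h := congrFun (LinearMap.mem_ker.mp hc) j
  simpa [Φ, LinearMap.sum_apply, LinearMap.toSpanSingleton_apply] using h

/-- Elements of `D` are dependent over the centralizer of a finite-dimensional subalgebra `B`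
as soon as their number exceeds `dim B`. -/
theorem exists_dep_over_centralizer (B : Subalgebra F D) [Module.Finite F B]
    {ι : Type*} [Fintype ι] (hcard : Module.finrank F B < Fintype.card ι) (x : ι → D) :
    ∃ c : ι → D, c ≠ 0 ∧ (∀ i, c i ∈ Subalgebra.centralizer F (B : Set D)) ∧
      ∑ i, c i * x i = 0 := by
  classical
  -- solutions of the system for all of `B`
  let Sol : (ι → D) → Prop := fun c => ∀ β ∈ B, ∑ i, c i * (β * x i) = 0
  have hex : ∃ c : ι → D, c ≠ 0 ∧ Sol c := by
    let b := Module.finBasis F B
    obtain ⟨c, hc0, hc⟩ := exists_ne_zero_forall_sum_mul_eq_zero (D := D)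
      (κ := Fin (Module.finrank F B)) (ι := ι) (by simpa using hcard)
      (fun j i => ((b j : B) : D) * x i)
    refine ⟨c, hc0, ?_⟩
    intro β hβ
    have hrep := b.sum_repr ⟨β, hβ⟩
    have hrep' : β = ∑ j, (b.repr ⟨β, hβ⟩ j) • ((b j : B) : D) := by
      calc β = ((⟨β, hβ⟩ : B) : D) := rfl
        _ = ((∑ j, (b.repr ⟨β, hβ⟩ j) • b j : B) : D) := by rw [hrep]
        _ = _ := by
          rw [AddSubmonoidClass.coe_finset_sum]
          rfl
    rw [hrep']
    have : ∀ i, c i * ((∑ j, (b.repr ⟨β, hβ⟩ j) • ((b j : B) : D)) * x i)
        = ∑ j, (b.repr ⟨β, hβ⟩ j) • (c i * (((b j : B) : D) * x i)) := by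
      intro i
      rw [Finset.sum_mul, Finset.mul_sum]
      apply Finset.sum_congr rfl
      intro j _
      rw [smul_mul_assoc, mul_smul_comm]
    simp_rw [this]
    rw [Finset.sum_comm]
    apply Finset.sum_eq_zero
    intro j _
    rw [← Finset.smul_sum, hc j, smul_zero]
  -- induction on the size of the support
  have hmain : ∀ (n : ℕ) (c : ι → D), c ≠ 0 → Sol c →
      (Finset.univ.filter fun i => c i ≠ 0).card ≤ n →
      ∃ c' : ι → D, c' ≠ 0 ∧ Sol c' ∧ ∀ i, c' i ∈ Subalgebra.centralizer F (B : Set D) := by
    intro n
    induction n with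
    | zero =>
      intro c hc0 _ hn
      exfalso
      apply hc0
      funext i
      by_contra hi
      have : i ∈ Finset.univ.filter fun i => c i ≠ 0 := by
        simp only [Finset.mem_filter, Finset.mem_univ, true_and]
        exact hi
      have hpos := Finset.card_pos.mpr ⟨i, this⟩
      omega
    | succ n ih =>
      intro c hc0 hsol hn
      obtain ⟨i0, hi0⟩ : ∃ i0, c i0 ≠ 0 := by
        by_contra hcon
        push Not at hcon
        exact hc0 (funext hcon)
      let c' : ι → D := fun i => (c i0)⁻¹ * c i
      have hc'i0 : c' i0 = 1 := inv_mul_cancel₀ hi0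
      have hc'0 : c' ≠ 0 := by
        intro h
        have := congrFun h i0
        rw [hc'i0] at this
        exact one_ne_zero this
      have hsol' : Sol c' := by
        intro β hβ
        have h := hsol β hβ
        have : ∑ i, c' i * (β * x i) = (c i0)⁻¹ * ∑ i, c i * (β * x i) := by
          rw [Finset.mul_sum]
          apply Finset.sum_congr rfl
          intro i _
          simp only [c']
          rw [mul_assoc]
        rw [this, h, mul_zero]
      by_cases hcomm : ∀ i, c' i ∈ Subalgebra.centralizer F (B : Set D)
      · exact ⟨c', hc'0, hsol', hcomm⟩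
      · push Not at hcomm
        obtain ⟨i1, hi1⟩ := hcomm
        rw [Subalgebra.mem_centralizer_iff] at hi1
        push Not at hi1
        obtain ⟨β, hβ, hne⟩ := hi1
        let e : ι → D := fun i => β * c' i - c' i * β
        have he0 : e ≠ 0 := by
          intro h
          have := congrFun h i1
          exact hne (sub_eq_zero.mp this)
        have hesol : Sol e := by
          intro β' hβ'
          have h1 := hsol' β' hβ'
          have h2 := hsol' (β * β') (B.mul_mem hβ hβ')
          have : ∑ i, e i * (β' * x i)
              = β * ∑ i, c' i * (β' * x i) - ∑ i, c' i * ((β * β') * x i) := by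
            rw [Finset.mul_sum, ← Finset.sum_sub_distrib]
            apply Finset.sum_congr rfl
            intro i _
            simp only [e]
            noncomm_ring
          rw [this, h1, h2, mul_zero, sub_zero]
        have hsupp : (Finset.univ.filter fun i => e i ≠ 0).card ≤ n := by
          have hsub : (Finset.univ.filter fun i => e i ≠ 0) ⊆
              (Finset.univ.filter fun i => c i ≠ 0).erase i0 := by
            intro i hi
            simp only [Finset.mem_filter, Finset.mem_univ, true_and] at hi
            simp only [Finset.mem_erase, Finset.mem_filter, Finset.mem_univ, true_and]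
            constructor
            · rintro rfl
              apply hi
              simp only [e]
              rw [hc'i0, mul_one, one_mul, sub_self]
            · intro h
              apply hi
              simp only [e, c']
              rw [h, mul_zero, mul_zero, zero_mul, sub_self]
          have h1 := Finset.card_le_card hsub
          have h2 : i0 ∈ Finset.univ.filter fun i => c i ≠ 0 := by simp [hi0]
          rw [Finset.card_erase_of_mem h2] at h1
          omega
        exact ih e he0 hesol hsupp
  obtain ⟨c, hc0, hsol⟩ := hex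
  obtain ⟨c', hc'0, hsol', hcent⟩ := hmain _ c hc0 hsol le_rfl
  refine ⟨c', hc'0, hcent, ?_⟩
  have := hsol' 1 B.one_mem
  simpa using this

/-- If the centralizer of a finite-dimensional subalgebra of a division ring `D` is locally finite,
then so is `D`. -/
theorem locallyFinite_of_centralizer (B : Subalgebra F D) [Module.Finite F B]
    (hC : ∀ U : Finset D, (U : Set D) ⊆ (Subalgebra.centralizer F (B : Set D) : Set D) →
      Module.Finite F (Algebra.adjoin F (U : Set D)))
    (T : Finset D) : Module.Finite F (Algebra.adjoin F (T : Set D)) := by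
  classical
  set C := Subalgebra.centralizer F (B : Set D) with hCdef
  have hinvC : ∀ c ∈ C, c⁻¹ ∈ C := by
    intro c hc
    rw [hCdef, Subalgebra.mem_centralizer_iff] at hc ⊢
    intro g hg
    have h : Commute g c := hc g hg
    exact h.inv_right₀
  let Ind : Finset D → Prop := fun s =>
    ∀ c : D → D, (∀ i ∈ s, c i ∈ C) → ∑ i ∈ s, c i * i = 0 → ∀ i ∈ s, c i = 0
  have hbound : ∀ s, Ind s → s.card ≤ Module.finrank F B := by
    intro s hs
    by_contra hcon
    push Not at hcon
    obtain ⟨c, hc0, hcC, hsum⟩ := exists_dep_over_centralizer B (ι := s)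
      (by simpa using hcon) (fun i => (i : D))
    apply hc0
    let c' : D → D := fun d => if h : d ∈ s then c ⟨d, h⟩ else 0
    have hc' : ∀ i : s, c' i = c i := by
      intro i
      simp [c']
    have hs1 := hs c' (by
        intro i hi
        have := hc' ⟨i, hi⟩
        simp only at this
        rw [this]; exact hcC _) (by
        rw [← hsum, ← Finset.sum_coe_sort s]
        apply Finset.sum_congr rfl
        intro i _
        rw [hc'])
    funext i
    have := hs1 i i.2
    rw [hc'] at this
    exact this
  -- a maximal independent set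
  have hInd0 : Ind ∅ := by intro c _ _ i hi; simp at hi
  obtain ⟨s, hs, hsmax⟩ : ∃ s, Ind s ∧ ∀ t, Ind t → t.card ≤ s.card := by
    have hset : ∃ m, ∃ s, Ind s ∧ s.card = m := ⟨0, ∅, hInd0, rfl⟩
    have hbdd : ∀ m, (∃ s, Ind s ∧ s.card = m) → m ≤ Module.finrank F B := by
      rintro m ⟨s, hs, rfl⟩; exact hbound s hs
    let m := Nat.findGreatest (fun m => ∃ s, Ind s ∧ s.card = m) (Module.finrank F B)
    have hm : ∃ s, Ind s ∧ s.card = m :=
      Nat.findGreatest_spec (P := fun m => ∃ s, Ind s ∧ s.card = m) (Nat.zero_le _) ⟨∅, hInd0, rfl⟩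
    obtain ⟨s, hs, hcard⟩ := hm
    refine ⟨s, hs, fun t ht => ?_⟩
    rw [hcard]
    exact Nat.le_findGreatest (hbound t ht) ⟨t, ht, rfl⟩
  -- `s` spans
  let K : Submodule F D := Submodule.span F (s : Set D)
  have hspan : ∀ y : D, y ∈ C.toSubmodule * K := by
    intro y
    by_cases hy : y ∈ s
    · have : (1 : D) * y ∈ C.toSubmodule * K :=
        Submodule.mul_mem_mul C.one_mem (Submodule.subset_span hy)
      simpa using this
    · have hnot : ¬ Ind (insert y s) := by
        intro h
        have := hsmax _ h
        rw [Finset.card_insert_of_notMem hy] at this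
        omega
      simp only [Ind] at hnot
      push Not at hnot
      obtain ⟨c, hcC, hsum, i, hi, hci⟩ := hnot
      rw [Finset.sum_insert hy] at hsum
      have hcy : c y ≠ 0 := by
        intro h0
        rw [h0, zero_mul, zero_add] at hsum
        have hcs := hs c (fun i hi => hcC i (Finset.mem_insert_of_mem hi)) hsum
        rcases Finset.mem_insert.mp hi with rfl | hi'
        · exact hci h0
        · exact hci (hcs i hi')
      have hy' : y = ∑ i ∈ s, (-(c y)⁻¹ * c i) * i := by
        have h1 : c y * y = - ∑ i ∈ s, c i * i := eq_neg_of_add_eq_zero_left hsum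
        calc y = (c y)⁻¹ * (c y * y) := by rw [← mul_assoc, inv_mul_cancel₀ hcy, one_mul]
          _ = _ := by
            rw [h1, mul_neg, Finset.mul_sum, ← Finset.sum_neg_distrib]
            apply Finset.sum_congr rfl
            intro i _
            noncomm_ring
      rw [hy']
      apply Submodule.sum_mem
      intro i hi
      apply Submodule.mul_mem_mul
      · apply C.mul_mem
        · exact C.neg_mem (hinvC _ (hcC y (Finset.mem_insert_self _ _)))
        · exact hcC i (Finset.mem_insert_of_mem hi)
      · exact Submodule.subset_span hi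
  exact finite_adjoin_of_mul_le C hC K ⟨s, rfl⟩ (hspan 1) T (fun t _ k _ => hspan _)

end Centralizer

end Vale.Agent.Lib.P199
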