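import Vale.Agent.Lib.P199.Defs
import Vale.Agent.Lib.P199.Local

namespace Vale.Agent.Lib.P199

universe u

section

variable {F : Type u} {D : Type u} [Field F] [DivisionRing D] [Algebra F D]

/-- Local finiteness of a subalgebra. -/
def LFA (E : Subalgebra F D) : Prop :=
  ∀ U : Finset D, (U : Set D) ⊆ (E : Set D) → Module.Finite F (Algebra.adjoin F (U : Set D))

theorem LFA.mono {E₁ E₂ : Subalgebra F D} (h : E₁ ≤ E₂) (hE : LFA E₂) : LFA E₁ :=
  fun U hU => hE U (hU.trans h)

theorem mul_mem_aux (E : Subalgebra F D) (K : Submodule F D) {e k : D} (he : e ∈ E) (hk : k ∈ K) :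
    e * k ∈ E.toSubmodule * K :=
  Submodule.mul_mem_mul (Subalgebra.mem_toSubmodule E |>.mpr he) hk

theorem LFA_of_mul_le (E : Subalgebra F D) (hE : LFA E) (K : Submodule F D) (hK : K.FG)
    (h1 : (1 : D) ∈ E.toSubmodule * K) (S : Set D)
    (hS : ∀ t ∈ S, ∀ k ∈ K, k * t ∈ E.toSubmodule * K) : LFA (Algebra.adjoin F S) := by
  intro U hU
  have hleft : ∀ e ∈ E, ∀ w ∈ E.toSubmodule * K, e * w ∈ E.toSubmodule * K := by
    intro e he w hw
    induction hw using Submodule.mul_induction_on' with
    | mem_mul_mem e' he' k hk =>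
      rw [← mul_assoc]
      exact Submodule.mul_mem_mul (E.mul_mem he he') hk
    | add x _ y _ ihx ihy =>
      rw [mul_add]; exact Submodule.add_mem _ ihx ihy
  have hgen : ∀ t ∈ S, ∀ w ∈ E.toSubmodule * K, w * t ∈ E.toSubmodule * K := by
    intro t ht w hw
    induction hw using Submodule.mul_induction_on' with
    | mem_mul_mem e he k hk =>
      rw [mul_assoc]
      exact hleft e he _ (hS t ht k hk)
    | add x _ y _ ihx ihy =>
      rw [add_mul]; exact Submodule.add_mem _ ihx ihy
  have hall : ∀ x ∈ Algebra.adjoin F S, ∀ w ∈ E.toSubmodule * K, w * x ∈ E.toSubmodule * K := by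
    intro x hx
    induction hx using Algebra.adjoin_induction with
    | mem t ht => exact hgen t ht
    | algebraMap r =>
      intro w hw
      rw [← Algebra.commutes, ← Algebra.smul_def]
      exact Submodule.smul_mem _ r hw
    | add x y _ _ ihx ihy =>
      intro w hw; rw [mul_add]; exact Submodule.add_mem _ (ihx w hw) (ihy w hw)
    | mul x y _ _ ihx ihy =>
      intro w hw; rw [← mul_assoc]; exact ihy _ (ihx w hw)
  refine finite_adjoin_of_mul_le E hE K hK h1 U ?_
  intro t ht k hk
  have hkmem : k ∈ E.toSubmodule * K := by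
    have : (1 : D) * k ∈ E.toSubmodule * K := Submodule.mul_mem_mul E.one_mem hk
    rwa [one_mul] at this
  exact hall t (hU ht) k hkmem

variable {G : Type u} [Group G]

/-- The subalgebra generated by the image of a subset of a group. -/
def algOf (F : Type u) {D : Type u} [Field F] [DivisionRing D] [Algebra F D] {G : Type u} [Group G]
    (ρ : G →* Dˣ) (S : Set G) : Subalgebra F D :=
  Algebra.adjoin F ((fun g => (ρ g : D)) '' S)

theorem algOf_mono (ρ : G →* Dˣ) {S T : Set G} (h : S ⊆ T) :
    algOf F ρ S ≤ algOf F ρ T :=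
  Algebra.adjoin_mono (Set.image_mono h)

theorem exists_finset_of_mem_algOf (ρ : G →* Dˣ) (S : Set G) {x : D} (hx : x ∈ algOf F ρ S) :
    ∃ T : Finset G, (T : Set G) ⊆ S ∧ x ∈ algOf F ρ (T : Set G) := by
  classical
  unfold algOf at hx
  induction hx using Algebra.adjoin_induction with
  | mem t ht =>
    obtain ⟨g, hg, rfl⟩ := ht
    exact ⟨{g}, by simpa using hg, Algebra.subset_adjoin ⟨g, by simp, rfl⟩⟩
  | algebraMap r => exact ⟨∅, by simp, Subalgebra.algebraMap_mem _ r⟩
  | add x y _ _ ihx ihy =>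
    obtain ⟨T₁, h₁, hx⟩ := ihx
    obtain ⟨T₂, h₂, hy⟩ := ihy
    refine ⟨T₁ ∪ T₂, by rw [Finset.coe_union]; exact Set.union_subset h₁ h₂, ?_⟩
    apply Subalgebra.add_mem
    · exact algOf_mono ρ (by simp) hx
    · exact algOf_mono ρ (by simp) hy
  | mul x y _ _ ihx ihy =>
    obtain ⟨T₁, h₁, hx⟩ := ihx
    obtain ⟨T₂, h₂, hy⟩ := ihy
    refine ⟨T₁ ∪ T₂, by rw [Finset.coe_union]; exact Set.union_subset h₁ h₂, ?_⟩
    apply Subalgebra.mul_mem
    · exact algOf_mono ρ (by simp) hx
    · exact algOf_mono ρ (by simp) hy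

theorem exists_finset_of_subset_algOf (ρ : G →* Dˣ) (S : Set G) (U : Finset D)
    (hU : (U : Set D) ⊆ (algOf F ρ S : Set D)) :
    ∃ T : Finset G, (T : Set G) ⊆ S ∧ (U : Set D) ⊆ (algOf F ρ (T : Set G) : Set D) := by
  classical
  induction U using Finset.induction_on with
  | empty => exact ⟨∅, by simp, by simp⟩
  | insert a s _ ih =>
    rw [Finset.coe_insert, Set.insert_subset_iff] at hU
    obtain ⟨T₁, h₁, ha⟩ := exists_finset_of_mem_algOf ρ S hU.1
    obtain ⟨T₂, h₂, hs⟩ := ih hU.2
    refine ⟨T₁ ∪ T₂, by rw [Finset.coe_union]; exact Set.union_subset h₁ h₂, ?_⟩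
    rw [Finset.coe_insert, Set.insert_subset_iff]
    constructor
    · exact algOf_mono ρ (by simp) ha
    · exact hs.trans (algOf_mono ρ (by simp))

/-- Finite quotient step. -/
theorem LFA_of_finite_quotient {Q : Type u} [Group Q] [Finite Q] (π : G →* Q)
    (hπ : Function.Surjective π) (ρ : G →* Dˣ)
    (hE : LFA (algOf F ρ (π.ker : Set G))) : LFA (algOf F ρ (Set.univ : Set G)) := by
  classical
  haveI := Fintype.ofFinite Q
  choose s hs using hπ
  let K : Submodule F D := Submodule.span F (Set.range fun q => (ρ (s q) : D))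
  have hKfg : K.FG := Submodule.fg_span (Set.finite_range _)
  have hmemE : ∀ g ∈ π.ker, (ρ g : D) ∈ algOf F ρ (π.ker : Set G) := by
    intro g hg
    exact Algebra.subset_adjoin ⟨g, hg, rfl⟩
  have h1 : (1 : D) ∈ (algOf F ρ (π.ker : Set G)).toSubmodule * K := by
    have h0 : (s 1)⁻¹ ∈ π.ker := by
      rw [MonoidHom.mem_ker, map_inv, hs, inv_one]
    have := mul_mem_aux _ K (hmemE _ h0)
      (Submodule.subset_span (Set.mem_range_self (1 : Q)) : (ρ (s 1) : D) ∈ K)
    rwa [← Units.val_mul, ← map_mul, inv_mul_cancel, map_one, Units.val_one] at this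
  have := LFA_of_mul_le _ hE K hKfg h1 ((fun g => (ρ g : D)) '' Set.univ) (by
    rintro _ ⟨g, -, rfl⟩ k hk
    rw [show K = Submodule.span F _ from rfl] at hk
    induction hk using Submodule.span_induction with
    | mem x hx =>
      obtain ⟨q, rfl⟩ := hx
      have hmem : s q * g * (s (q * π g))⁻¹ ∈ π.ker := by
        rw [MonoidHom.mem_ker, map_mul, map_mul, map_inv, hs, hs]
        group
      have := mul_mem_aux _ K (hmemE _ hmem)
        (Submodule.subset_span (Set.mem_range_self (q * π g)) : (ρ (s (q * π g)) : D) ∈ K)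
      rwa [← Units.val_mul, ← map_mul, inv_mul_cancel_right, map_mul, Units.val_mul] at this
    | zero => simp
    | add x y _ _ ihx ihy => rw [add_mul]; exact Submodule.add_mem _ ihx ihy
    | smul r x _ ihx => rw [smul_mul_assoc]; exact Submodule.smul_mem _ r ihx)
  exact this

/-- Commutation of a power of `ρ t` with the image of an element of the normal subgroup. -/
theorem pow_mul_mem (ρ : G →* Dˣ) (N : Subgroup G) [hN : N.Normal] (t n : G) (hn : n ∈ N)
    (K : Submodule F D) (i : ℕ) (hi : ((ρ t : D)) ^ i ∈ K) :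
    ((ρ t : D)) ^ i * (ρ n : D) ∈ (algOf F ρ (N : Set G)).toSubmodule * K := by
  have hnorm : t ^ i * n * (t ^ i)⁻¹ ∈ N := hN.conj_mem n hn (t ^ i)
  have hmem : (ρ (t ^ i * n * (t ^ i)⁻¹) : D) ∈ algOf F ρ (N : Set G) :=
    Algebra.subset_adjoin ⟨_, hnorm, rfl⟩
  have hmul := mul_mem_aux _ K hmem hi
  have he : (ρ (t ^ i * n * (t ^ i)⁻¹) : D) * (ρ t : D) ^ i = (ρ t : D) ^ i * (ρ n : D) := by
    have h1 : ρ (t ^ i * n * (t ^ i)⁻¹) * (ρ t) ^ i = (ρ t) ^ i * ρ n := by
      rw [← map_pow, ← map_mul, inv_mul_cancel_right, map_mul]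
    have h2 := congrArg (fun u : Dˣ => (u : D)) h1
    simpa only [Units.val_mul, Units.val_pow_eq_pow_val] using h2
  rw [he] at hmul
  exact hmul

/-- Cyclic step: `N` normal in `G`, add one element. -/
theorem LFA_sup_closure (halg : Algebra.IsAlgebraic F D) (ρ : G →* Dˣ) (N : Subgroup G) [N.Normal]
    (t : G) (hE : LFA (algOf F ρ (N : Set G))) :
    LFA (algOf F ρ ((N ⊔ Subgroup.closure {t} : Subgroup G) : Set G)) := by
  classical
  have hxint : IsIntegral F (ρ t : D) := (halg.isAlgebraic _).isIntegral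
  have hKfg : (Algebra.adjoin F {(ρ t : D)}).toSubmodule.FG := hxint.fg_adjoin_singleton
  have h1 : (1 : D) ∈ (algOf F ρ (N : Set G)).toSubmodule * (Algebra.adjoin F {(ρ t : D)}).toSubmodule := by
    have := mul_mem_aux (algOf F ρ (N : Set G)) (Algebra.adjoin F {(ρ t : D)}).toSubmodule
      (Subalgebra.one_mem _) (Subalgebra.one_mem (Algebra.adjoin F {(ρ t : D)}))
    rwa [one_mul] at this
  have hK1 : ∀ k ∈ (Algebra.adjoin F {(ρ t : D)}).toSubmodule,
      k ∈ (algOf F ρ (N : Set G)).toSubmodule * (Algebra.adjoin F {(ρ t : D)}).toSubmodule := by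
    intro k hk
    have := mul_mem_aux (algOf F ρ (N : Set G)) (Algebra.adjoin F {(ρ t : D)}).toSubmodule
      (Subalgebra.one_mem _) hk
    rwa [one_mul] at this
  -- generators
  have hLF := LFA_of_mul_le (algOf F ρ (N : Set G)) hE (Algebra.adjoin F {(ρ t : D)}).toSubmodule
    hKfg h1 ((fun g => (ρ g : D)) '' (N : Set G) ∪ {(ρ t : D), (ρ t : D)⁻¹}) (by
    intro s hs k hk
    rcases hs with ⟨n, hn, rfl⟩ | hs
    · -- the element comes from `N`
      have hk' := hk
      rw [Algebra.adjoin_eq_span] at hk'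
      induction hk' using Submodule.span_induction with
      | mem y hy =>
        have hy' : y ∈ Submonoid.powers (ρ t : D) := by
          rw [Submonoid.powers_eq_closure]; exact hy
        obtain ⟨i, rfl⟩ := hy'
        exact pow_mul_mem ρ N t n hn _ i hk
      | zero => simp
      | add a b ha hb iha ihb =>
        rw [add_mul]
        exact Submodule.add_mem _ (iha (Algebra.adjoin_eq_span F {(ρ t : D)} ▸ ha))
          (ihb (Algebra.adjoin_eq_span F {(ρ t : D)} ▸ hb))
      | smul r a ha iha =>
        rw [smul_mul_assoc]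
        exact Submodule.smul_mem _ r (iha (Algebra.adjoin_eq_span F {(ρ t : D)} ▸ ha))
    · apply hK1
      rcases hs with hs | hs
      · rw [hs]
        exact Subalgebra.mul_mem _ hk (Algebra.subset_adjoin rfl)
      · rw [Set.mem_singleton_iff.mp hs]
        exact Subalgebra.mul_mem _ hk hxint.inv_mem_adjoin)
  refine LFA.mono ?_ hLF
  apply Algebra.adjoin_le
  rintro _ ⟨g, hg, rfl⟩
  -- every element of the subgroup lies in the algebra
  set A := Algebra.adjoin F ((fun g => (ρ g : D)) '' (N : Set G) ∪ {(ρ t : D), (ρ t : D)⁻¹}) with hA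
  let P : Subgroup G :=
    { carrier := {g | (ρ g : D) ∈ A ∧ (ρ g⁻¹ : D) ∈ A}
      mul_mem' := by
        rintro a b ⟨ha, ha'⟩ ⟨hb, hb'⟩
        constructor
        · rw [map_mul, Units.val_mul]; exact A.mul_mem ha hb
        · rw [mul_inv_rev, map_mul, Units.val_mul]; exact A.mul_mem hb' ha'
      one_mem' := by
        constructor
        · rw [map_one, Units.val_one]; exact A.one_mem
        · rw [inv_one, map_one, Units.val_one]; exact A.one_mem
      inv_mem' := by
        rintro a ⟨ha, ha'⟩
        exact ⟨ha', by rw [inv_inv]; exact ha⟩ }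
  have hle : N ⊔ Subgroup.closure {t} ≤ P := by
    apply sup_le
    · intro n hn
      refine ⟨Algebra.subset_adjoin (Or.inl ⟨n, hn, rfl⟩), ?_⟩
      exact Algebra.subset_adjoin (Or.inl ⟨n⁻¹, N.inv_mem hn, rfl⟩)
    · rw [Subgroup.closure_le]
      rintro _ rfl
      refine ⟨Algebra.subset_adjoin (Or.inr (Or.inl rfl)), ?_⟩
      rw [map_inv, Units.val_inv_eq_inv_val]
      exact Algebra.subset_adjoin (Or.inr (Or.inr rfl))
  exact (hle hg).1

/-- Abelian quotient step. -/
theorem LFA_of_comm_quotient (halg : Algebra.IsAlgebraic F D) {Q : Type u} [Group Q]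
    (hQ : ∀ a b : Q, a * b = b * a) (π : G →* Q) (ρ : G →* Dˣ)
    (hE : LFA (algOf F ρ (π.ker : Set G))) : LFA (algOf F ρ (Set.univ : Set G)) := by
  classical
  -- subgroups containing the kernel are normal
  have hnormal : ∀ N : Subgroup G, π.ker ≤ N → N.Normal := by
    intro N hN
    constructor
    intro n hn g
    have hc : g * n * g⁻¹ * n⁻¹ ∈ π.ker := by
      rw [MonoidHom.mem_ker]
      simp only [map_mul, map_inv]
      rw [hQ (π g) (π n)]
      group
    have := N.mul_mem (hN hc) hn
    simpa using this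
  have hstep : ∀ T : Finset G,
      LFA (algOf F ρ ((π.ker ⊔ Subgroup.closure (T : Set G) : Subgroup G) : Set G)) := by
    intro T
    induction T using Finset.induction_on with
    | empty =>
      simp only [Finset.coe_empty, Subgroup.closure_empty, sup_bot_eq]
      exact hE
    | insert t T _ ih =>
      haveI := hnormal (π.ker ⊔ Subgroup.closure (T : Set G)) le_sup_left
      have h := LFA_sup_closure halg ρ (π.ker ⊔ Subgroup.closure (T : Set G)) t ih
      have heq : π.ker ⊔ Subgroup.closure ((insert t T : Finset G) : Set G)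
          = π.ker ⊔ Subgroup.closure (T : Set G) ⊔ Subgroup.closure {t} := by
        rw [Finset.coe_insert, Set.insert_eq, Subgroup.closure_union, sup_assoc,
          sup_comm (Subgroup.closure {t})]
      rw [heq]
      exact h
  intro U hU
  obtain ⟨T, -, hT⟩ := exists_finset_of_subset_algOf ρ Set.univ U hU
  refine hstep T U (hT.trans ?_)
  apply algOf_mono
  exact fun g hg => (le_sup_right : Subgroup.closure (T : Set G) ≤ _) (Subgroup.subset_closure hg)

/-- The main induction over elementary amenable groups. -/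
theorem LFA_of_elemAmenable (halg : Algebra.IsAlgebraic F D) {Q : Type u} [Group Q]
    (hQ : ElemAmenable Q) :
    ∀ (G : Type u) [Group G] (π : G →* Q), Function.Surjective π → ∀ (ρ : G →* Dˣ),
      LFA (algOf F ρ (π.ker : Set G)) → LFA (algOf F ρ (Set.univ : Set G)) := by
  induction hQ with
  | of_finite Q =>
    intro G _ π hπ ρ hE
    exact LFA_of_finite_quotient π hπ ρ hE
  | of_comm Q h =>
    intro G _ π _ ρ hE
    exact LFA_of_comm_quotient halg h π ρ hE
  | of_extension Q N _ _ ihN ihQ =>
    intro G _ π hπ ρ hE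
    have h1 : LFA (algOf F (ρ.comp (N.comap π).subtype) (Set.univ : Set (N.comap π))) := by
      apply ihN (N.comap π) (π.subgroupComap N) (π.subgroupComap_surjective_of_surjective N hπ)
      refine LFA.mono ?_ hE
      apply Algebra.adjoin_mono
      rintro _ ⟨g, hg, rfl⟩
      refine ⟨g.1, ?_, rfl⟩
      have hg' : π.subgroupComap N g = 1 := hg
      have := congrArg Subtype.val hg'
      exact this
    apply ihQ G ((QuotientGroup.mk' N).comp π)
      ((QuotientGroup.mk'_surjective N).comp hπ)
    refine LFA.mono ?_ h1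
    apply Algebra.adjoin_le
    rintro _ ⟨g, hg, rfl⟩
    have hgN : g ∈ N.comap π := by
      have hg' : (QuotientGroup.mk' N) (π g) = 1 := hg
      exact (QuotientGroup.eq_one_iff (π g)).mp hg'
    exact Algebra.subset_adjoin ⟨⟨g, hgN⟩, Set.mem_univ _, rfl⟩
  | of_directedUnion Q K hne hdir htop _ ih =>
    intro G _ π hπ ρ hE U hU
    classical
    obtain ⟨T, -, hT⟩ := exists_finset_of_subset_algOf ρ Set.univ U hU
    have hex : ∀ T : Finset G, ∃ H ∈ K, ∀ t ∈ T, π t ∈ H := by
      intro T
      induction T using Finset.induction_on with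
      | empty =>
        obtain ⟨H, hH⟩ := hne
        exact ⟨H, hH, by simp⟩
      | insert a s _ ihs =>
        obtain ⟨H₁, hH₁, hs⟩ := ihs
        have ha : π a ∈ sSup K := by rw [htop]; exact Subgroup.mem_top _
        obtain ⟨H₂, hH₂, ha⟩ := (Subgroup.mem_sSup_of_directedOn hne hdir).mp ha
        obtain ⟨H₃, hH₃, h13, h23⟩ := hdir H₁ hH₁ H₂ hH₂
        refine ⟨H₃, hH₃, ?_⟩
        intro t ht
        rcases Finset.mem_insert.mp ht with rfl | ht
        · exact h23 ha
        · exact h13 (hs t ht)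
    obtain ⟨H, hH, hTH⟩ := hex T
    have h1 : LFA (algOf F (ρ.comp (H.comap π).subtype) (Set.univ : Set (H.comap π))) := by
      apply ih ⟨H, hH⟩ (H.comap π) (π.subgroupComap H) (π.subgroupComap_surjective_of_surjective H hπ)
      refine LFA.mono ?_ hE
      apply Algebra.adjoin_mono
      rintro _ ⟨g, hg, rfl⟩
      refine ⟨g.1, ?_, rfl⟩
      have hg' : π.subgroupComap H g = 1 := hg
      have := congrArg Subtype.val hg'
      exact this
    refine h1 U (hT.trans ?_)
    apply Algebra.adjoin_le
    rintro _ ⟨g, hg, rfl⟩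
    exact Algebra.subset_adjoin ⟨⟨g, hTH g hg⟩, Set.mem_univ _, rfl⟩

/-- Final form. -/
theorem finite_adjoin_of_elemAmenable (halg : Algebra.IsAlgebraic F D) (S : Finset Dˣ)
    (hS : ElemAmenable (Subgroup.closure (S : Set Dˣ))) :
    Module.Finite F (Algebra.adjoin F ((fun u : Dˣ => (u : D)) '' (S : Set Dˣ))) := by
  classical
  have hE : LFA (algOf F (Subgroup.closure (S : Set Dˣ)).subtype
      (((MonoidHom.id (Subgroup.closure (S : Set Dˣ))).ker : Subgroup _) : Set _)) := by
    intro U hU
    have hle' : Algebra.adjoin F (U : Set D) ≤ (⊥ : Subalgebra F D) := by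
      apply Algebra.adjoin_le
      apply hU.trans
      apply Algebra.adjoin_le
      rintro _ ⟨g, hg, rfl⟩
      have hg1 : g = 1 := hg
      subst hg1
      have h1 : (((Subgroup.closure (S : Set Dˣ)).subtype 1 : Dˣ) : D) = 1 := by simp
      change (((Subgroup.closure (S : Set Dˣ)).subtype 1 : Dˣ) : D) ∈ (⊥ : Subalgebra F D)
      rw [h1]
      exact Subalgebra.one_mem _
    have hle : (Algebra.adjoin F (U : Set D)).toSubmodule ≤ (⊥ : Subalgebra F D).toSubmodule :=
      fun x hx => hle' hx
    have hfin : Module.Finite F ((⊥ : Subalgebra F D).toSubmodule) := by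
      rw [Algebra.toSubmodule_bot, Submodule.one_eq_span]
      infer_instance
    exact Submodule.finiteDimensional_of_le hle
  have h := LFA_of_elemAmenable halg hS _ (MonoidHom.id _) Function.surjective_id
    (Subgroup.closure (S : Set Dˣ)).subtype hE
  have hU := h (S.image fun u : Dˣ => (u : D)) (by
    intro x hx
    simp only [Finset.coe_image, Set.mem_image, Finset.mem_coe] at hx
    obtain ⟨u, hu, rfl⟩ := hx
    exact Algebra.subset_adjoin ⟨⟨u, Subgroup.subset_closure hu⟩, Set.mem_univ _, rfl⟩)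
  rw [Finset.coe_image] at hU
  exact hU

end

end Vale.Agent.Lib.P199
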